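import Vale.Agent.P199.Index

/-!
# P199: local finiteness of algebraic division rings, collected results
-/

namespace Vale.Agent.Results.P199.AlgebraicDivision

open Vale.Agent.P199.FieldDefs Vale.Agent.P199.IndexDefs

/-- **Local finiteness of algebraic division rings.** Let `D` be a division ring which is algebraic
over a central subfield `k`. Here (B) is `NoFiniteDivisionAlgebra`, (N) is `HasAutomorphisms` and
(R) is `ReducesIndex`.

(1) `D` is locally finite if and only if the centralizer of one (equivalently each)
finite-dimensional subalgebra is.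

(2) If for some finite-dimensional subalgebra `A` every commutative subalgebra of the centralizer
of `A` whose elements are separable over `k` is finite-dimensional, then `D` is locally finite.

(3) If some finite extension `K` of `k` which embeds in `D` over `k` has (N) and (R), then `D` is
locally finite over `k`.

(4) If `k` has (R) and `D` has a noncommutative finite-dimensional subalgebra, then `D` is locally
finite.

(5) If `k` has (N) and `D` is not commutative, then `D` has a noncommutative finite-dimensional
subalgebra.

(6) If `k` has (B) and (N), then `D` is commutative.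

(7) Finite fields have (B), (N) and (R). -/
theorem result (k K D : Type) [Field k] [Field K] [Algebra k K] [DivisionRing D] [Algebra k D]
    (halg : ∀ b : D, IsAlgebraic k b) :
    (∀ A : Subalgebra k D, FiniteDimensional k A →
      (LocallyFinite k D ↔ ∀ T : Finset D, (∀ t ∈ T, ∀ a ∈ A, t * a = a * t) →
        FiniteDimensional k (Algebra.adjoin k (T : Set D)))) ∧
    (∀ A : Subalgebra k D, FiniteDimensional k A →
      (∀ K : Subalgebra k D, (∀ x ∈ K, ∀ y ∈ K, x * y = y * x) →
        (∀ x ∈ K, ∀ a ∈ A, x * a = a * x) → (∀ x ∈ K, IsSeparable k x) →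
        FiniteDimensional k K) →
      LocallyFinite k D) ∧
    (FiniteDimensional k K → Nonempty (K →ₐ[k] D) →
      HasAutomorphisms K → ReducesIndex K → LocallyFinite k D) ∧
    (ReducesIndex k →
      (∃ A : Subalgebra k D, FiniteDimensional k A ∧ ∃ a ∈ A, ∃ b ∈ A, a * b ≠ b * a) →
      LocallyFinite k D) ∧
    (HasAutomorphisms k → (∃ x y : D, x * y ≠ y * x) →
      ∃ A : Subalgebra k D, FiniteDimensional k A ∧ ∃ a ∈ A, ∃ b ∈ A, a * b ≠ b * a) ∧
    (NoFiniteDivisionAlgebra k → HasAutomorphisms k → ∀ x y : D, x * y = y * x) ∧
    (Finite K → NoFiniteDivisionAlgebra K ∧ HasAutomorphisms K ∧ ReducesIndex K) := by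
  refine ⟨?_, ?_, ?_, ?_, ?_, ?_, ?_⟩
  · intro A hA
    constructor
    · intro h T _
      exact h T
    · intro h T
      exact ((Vale.Agent.Results.P199.Centralizer.result k D).1 A hA).mpr
        (fun T hT => h T (fun t ht => hT t ht)) T (fun _ _ => Set.mem_univ _)
  · intro A hA h T
    exact Vale.Agent.P199.Sep.locFin_of_subfields halg A h T (fun t _ => Set.mem_univ t)
  · rintro hK ⟨f⟩ hN hR
    exact Vale.Agent.P199.Index.locFin_of_index_sub halg hK f hN hR
  · rintro hR ⟨A, hA, hnc⟩
    exact Vale.Agent.P199.Index.locFin_of_noncomm halg hR A hA hnc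
  · rintro hN ⟨x, y, hxy⟩
    by_contra h
    push Not at h
    exact hxy (Vale.Agent.P199.Good.comm_of_good halg
      (fun E hE a ha b hb => h E hE a ha b hb) hN x y)
  · intro hB hN
    exact Vale.Agent.P199.Good.comm_of_good halg (Vale.Agent.P199.Good.sub_comm halg hB) hN
  · intro _
    exact ⟨Vale.Agent.P199.Good.finite_noDiv K, Vale.Agent.P199.Good.finite_aut K,
      Vale.Agent.P199.Index.finite_reduces K⟩

end Vale.Agent.Results.P199.AlgebraicDivision
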