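import Mathlib

/-!
# P199: local finiteness of a division ring is detected by the centralizer of a
finite-dimensional subalgebra
-/

namespace Vale.Agent.Results.P199.Centralizer

open Finset

/-- A subset `C` of a `k`-algebra `D` is *locally finite over `k`* if every finite subset of `C`
generates a `k`-subalgebra of finite dimension. -/
def LocFinOn (k : Type*) {D : Type*} [Field k] [Ring D] [Algebra k D] (C : Set D) : Prop :=
  ∀ T : Finset D, (∀ t ∈ T, t ∈ C) → FiniteDimensional k (Algebra.adjoin k (T : Set D))

section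

variable {k D : Type*} [Field k] [DivisionRing D] [Algebra k D]

/-- any `dim A + 1` elements satisfy a nontrivial relation with coefficients in the centralizer -/
theorem exists_relation (A : Subalgebra k D) [FiniteDimensional k A] {n : ℕ}
    (hn : Module.finrank k A < n) (x : Fin n → D) :
    ∃ c : Fin n → D, (∀ i, ∀ a ∈ A, c i * a = a * c i) ∧ c ≠ 0 ∧ ∑ i, c i * x i = 0 := by
  classical
  -- the basis of `A`
  let e := Module.finBasis k A
  -- the left `D`-linear map
  let f : (Fin n → D) →ₗ[D] (Fin (Module.finrank k A) → D) :=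
    { toFun := fun d => fun j => ∑ i, d i * ((e j : A) : D) * x i
      map_add' := by
        intro d d'
        funext j
        simp only [Pi.add_apply, add_mul, sum_add_distrib]
      map_smul' := by
        intro r d
        funext j
        simp only [Pi.smul_apply, smul_eq_mul, RingHom.id_apply, mul_sum, mul_assoc] }
  have hker : LinearMap.ker f ≠ ⊥ := by
    apply LinearMap.ker_ne_bot_of_finrank_lt
    rw [Module.finrank_fin_fun, Module.finrank_fin_fun]
    exact hn
  -- the elements of the kernel
  have hf : ∀ d, d ∈ LinearMap.ker f ↔ ∀ b ∈ A, ∑ i, d i * b * x i = 0 := by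
    intro d
    rw [LinearMap.mem_ker]
    constructor
    · intro h b hb
      have h1 : ∀ j, ∑ i, d i * ((e j : A) : D) * x i = 0 := fun j => congrFun h j
      obtain ⟨r, h2⟩ : ∃ r : Fin (Module.finrank k A) → k, b = ∑ j, r j • ((e j : A) : D) := by
        refine ⟨e.repr ⟨b, hb⟩, ?_⟩
        have h3 := congrArg (fun z : A => (z : D)) (e.sum_repr ⟨b, hb⟩)
        simp only at h3
        have h4 : ((∑ i, (e.repr ⟨b, hb⟩) i • e i : A) : D)
            = ∑ j, (e.repr ⟨b, hb⟩) j • ((e j : A) : D) := by
          show A.val (∑ i, (e.repr ⟨b, hb⟩) i • e i) = _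
          rw [map_sum]
          refine sum_congr rfl (fun i _ => ?_)
          rw [map_smul]
          rfl
        rw [← h4]
        exact h3.symm
      calc ∑ i, d i * b * x i
          = ∑ i, ∑ j, r j • (d i * ((e j : A) : D) * x i) := by
            refine sum_congr rfl (fun i _ => ?_)
            rw [h2, mul_sum, sum_mul]
            refine sum_congr rfl (fun j _ => ?_)
            rw [mul_smul_comm, smul_mul_assoc]
        _ = ∑ j, r j • ∑ i, d i * ((e j : A) : D) * x i := by
            rw [sum_comm]
            refine sum_congr rfl (fun j _ => ?_)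
            rw [smul_sum]
        _ = 0 := by
            refine sum_eq_zero (fun j _ => ?_)
            rw [h1 j, smul_zero]
    · intro h
      funext j
      exact h _ (e j : A).2
  -- a nonzero element of minimal support
  obtain ⟨d0, hd0, hd0'⟩ := Submodule.exists_mem_ne_zero_of_ne_bot hker
  let P : ℕ → Prop := fun m => ∃ d ∈ LinearMap.ker f, d ≠ 0 ∧ (univ.filter (fun i => d i ≠ 0)).card = m
  have hP : ∃ m, P m := ⟨_, d0, hd0, hd0', rfl⟩
  obtain ⟨d, hd, hdne, hdm⟩ := Nat.find_spec hP
  have hmin : ∀ d' ∈ LinearMap.ker f, (univ.filter (fun i => d' i ≠ 0)).card < Nat.find hP →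
      d' = 0 := by
    intro d' hd' hlt
    by_contra hne
    exact Nat.find_min hP hlt ⟨d', hd', hne, rfl⟩
  obtain ⟨i0, hi0⟩ : ∃ i, d i ≠ 0 := by
    by_contra h
    push Not at h
    exact hdne (funext h)
  set c : Fin n → D := (d i0)⁻¹ • d with hc
  have hcker : c ∈ LinearMap.ker f := Submodule.smul_mem _ _ hd
  have hci0 : c i0 = 1 := by
    rw [hc]
    simp only [Pi.smul_apply, smul_eq_mul]
    exact inv_mul_cancel₀ hi0
  have hcsupp : ∀ i, c i ≠ 0 → d i ≠ 0 := by
    intro i h1 h2
    apply h1
    rw [hc]
    simp only [Pi.smul_apply, smul_eq_mul, h2, mul_zero]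
  refine ⟨c, ?_, ?_, ?_⟩
  · intro i b hb
    let d' : Fin n → D := fun i => c i * b - b * c i
    have hd' : d' ∈ LinearMap.ker f := by
      rw [hf]
      intro b' hb'
      have h1 := (hf c).mp hcker (b * b') (A.mul_mem hb hb')
      have h2 := (hf c).mp hcker b' hb'
      have h3 : ∑ i, d' i * b' * x i = ∑ i, c i * (b * b') * x i - b * ∑ i, c i * b' * x i := by
        rw [mul_sum, ← sum_sub_distrib]
        refine sum_congr rfl (fun i _ => ?_)
        simp only [d', sub_mul, mul_assoc]
      rw [h3, h1, h2, mul_zero, sub_zero]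
    have hlt : (univ.filter (fun i => d' i ≠ 0)).card < Nat.find hP := by
      rw [← hdm]
      apply card_lt_card
      rw [ssubset_iff_of_subset]
      · refine ⟨i0, by simp [hi0], ?_⟩
        simp [d', hci0]
      · intro i hi
        simp only [mem_filter, mem_univ, true_and] at hi ⊢
        apply hcsupp
        intro h
        apply hi
        simp [d', h]
    have h0 := hmin d' hd' hlt
    have h4 := congrFun h0 i
    simp only [d', Pi.zero_apply] at h4
    exact sub_eq_zero.mp h4
  · intro h
    rw [h] at hci0
    exact zero_ne_one hci0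
  · have h1 := (hf c).mp hcker 1 A.one_mem
    simpa using h1

/-- `D` is a finite-dimensional left vector space over the centralizer of `A` -/
theorem exists_span (A : Subalgebra k D) [FiniteDimensional k A] :
    ∃ (n : ℕ) (x : Fin n → D), (∀ z : D, ∃ c : Fin n → D,
      (∀ i, ∀ a ∈ A, c i * a = a * c i) ∧ z = ∑ i, c i * x i) ∧
      (∀ c : Fin n → D, (∀ i, ∀ a ∈ A, c i * a = a * c i) → ∑ i, c i * x i = 0 → c = 0) := by
  classical
  -- `x` is independent over the centralizer
  let Ind : (n : ℕ) → (Fin n → D) → Prop := fun n x =>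
    ∀ c : Fin n → D, (∀ i, ∀ a ∈ A, c i * a = a * c i) → ∑ i, c i * x i = 0 → c = 0
  have h0 : Ind 0 (fun i => i.elim0) := by
    intro c _ _
    funext i
    exact i.elim0
  let Q : ℕ → Prop := fun n => ∃ x : Fin n → D, Ind n x
  have hQ0 : Q 0 := ⟨_, h0⟩
  have hQb : ∀ n, Q n → n ≤ Module.finrank k A := by
    rintro n ⟨x, hx⟩
    by_contra hlt
    push Not at hlt
    obtain ⟨c, hc, hne, hsum⟩ := exists_relation A hlt x
    exact hne (hx c hc hsum)
  obtain ⟨n, hn, hmax⟩ : ∃ n, Q n ∧ ∀ m, Q m → m ≤ n := by
    refine ⟨Nat.findGreatest Q (Module.finrank k A), Nat.findGreatest_spec (Nat.zero_le _) hQ0, ?_⟩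
    intro m hm
    exact Nat.le_findGreatest (hQb m hm) hm
  obtain ⟨x, hx⟩ := hn
  refine ⟨n, x, fun z => ?_, hx⟩
  have hnot : ¬ Ind (n + 1) (Fin.cons z x : Fin (n + 1) → D) := by
    intro h
    have := hmax (n + 1) ⟨_, h⟩
    omega
  simp only [Ind] at hnot
  push Not at hnot
  obtain ⟨c, hc, hsum, hne⟩ := hnot
  rw [Fin.sum_univ_succ] at hsum
  simp only [Fin.cons_zero, Fin.cons_succ] at hsum
  have hc0 : c 0 ≠ 0 := by
    intro h
    rw [h, zero_mul, zero_add] at hsum
    have h1 := hx (fun i => c i.succ) (fun i a ha => hc i.succ a ha) hsum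
    apply hne
    funext i
    refine Fin.cases ?_ (fun j => ?_) i
    · exact h
    · exact congrFun h1 j
  refine ⟨fun i => -((c 0)⁻¹ * c i.succ), ?_, ?_⟩
  · intro i a ha
    have h1 := hc 0 a ha
    have h2 := hc i.succ a ha
    have h3 : (c 0)⁻¹ * a = a * (c 0)⁻¹ := by
      have h4 : Commute (c 0) a := h1
      exact (h4.inv_left₀).eq
    rw [neg_mul, mul_neg, mul_assoc, h2, ← mul_assoc, h3, mul_assoc]
  · have h1 : c 0 * z = - ∑ i : Fin n, c i.succ * x i := by
      rw [eq_neg_iff_add_eq_zero]
      exact hsum
    have h2 : z = (c 0)⁻¹ * (c 0 * z) := by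
      rw [← mul_assoc, inv_mul_cancel₀ hc0, one_mul]
    rw [h2, h1, mul_neg, mul_sum, ← sum_neg_distrib]
    refine sum_congr rfl (fun i _ => ?_)
    rw [neg_mul, mul_assoc]

/-- the span of a family over a subalgebra, as the range of a linear map -/
def spanMap {R : Type*} [Ring R] [Algebra k R] (B : Subalgebra k R) {n : ℕ} (x : Fin n → R) :
    (Fin n → B) →ₗ[k] R where
  toFun := fun b => ∑ i, (b i : R) * x i
  map_add' := by
    intro b b'
    simp only [Pi.add_apply, Subalgebra.coe_add, add_mul, sum_add_distrib]
  map_smul' := by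
    intro r b
    simp only [Pi.smul_apply, Subalgebra.coe_smul, RingHom.id_apply, smul_sum, smul_mul_assoc]

/-- if `R` is spanned by `x` over a set `C` of coefficients, then for every finite `S` there are
finitely many elements of `C` such that the algebra generated by `S` lies in the span of `x` over
the algebra generated by them -/
theorem exists_coeff {R : Type*} [Ring R] [Algebra k R] (C : Set R) {n : ℕ} (x : Fin n → R)
    (hx : ∀ z : R, ∃ c : Fin n → R, (∀ i, c i ∈ C) ∧ z = ∑ i, c i * x i) (S : Finset R) :
    ∃ T : Finset R, (∀ t ∈ T, t ∈ C) ∧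
      Subalgebra.toSubmodule (Algebra.adjoin k (S : Set R)) ≤
        LinearMap.range (spanMap (Algebra.adjoin k (T : Set R)) x) := by
  classical
  choose γ hγ1 hγ2 using hx
  -- the coefficients
  let T : Finset R := (univ.image (γ 1)) ∪
    S.biUnion (fun s => (univ : Finset (Fin n)).biUnion (fun i => univ.image (γ (x i * s))))
  have hT : ∀ t ∈ T, t ∈ C := by
    intro t ht
    simp only [T, mem_union, mem_image, mem_biUnion, mem_univ, true_and] at ht
    rcases ht with ⟨i, rfl⟩ | ⟨s, _, i, j, rfl⟩
    · exact hγ1 _ _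
    · exact hγ1 _ _
  refine ⟨T, hT, ?_⟩
  set B := Algebra.adjoin k (T : Set R) with hB
  have hg : ∀ b : Fin n → B, spanMap B x b = ∑ i, (b i : R) * x i := fun _ => rfl
  have h1M : (1 : R) ∈ LinearMap.range (spanMap B x) := by
    have hmem : ∀ i, γ 1 i ∈ B := by
      intro i
      apply Algebra.subset_adjoin
      simp only [T, coe_union, Set.mem_union, mem_coe, mem_image, mem_univ, true_and]
      exact Or.inl ⟨i, rfl⟩
    refine ⟨fun i => ⟨γ 1 i, hmem i⟩, ?_⟩
    rw [hg]
    exact (hγ2 1).symm
  have hstep : ∀ s ∈ S, ∀ y ∈ LinearMap.range (spanMap B x),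
      y * s ∈ LinearMap.range (spanMap B x) := by
    rintro s hs _ ⟨b, rfl⟩
    have hmem : ∀ i j, γ (x i * s) j ∈ B := by
      intro i j
      apply Algebra.subset_adjoin
      simp only [T, coe_union, Set.mem_union, mem_coe, mem_biUnion, mem_image, mem_univ, true_and]
      exact Or.inr ⟨s, hs, i, j, rfl⟩
    refine ⟨fun j => ∑ i, b i * ⟨γ (x i * s) j, hmem i j⟩, ?_⟩
    rw [hg, hg, sum_mul]
    have h1 : ∀ i, (b i : R) * x i * s = ∑ j, (b i : R) * γ (x i * s) j * x j := by
      intro i
      rw [mul_assoc, hγ2 (x i * s), mul_sum]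
      refine sum_congr rfl (fun j _ => ?_)
      rw [mul_assoc, ← hγ2 (x i * s)]
    rw [sum_congr rfl (fun i _ => h1 i), sum_comm]
    refine sum_congr rfl (fun j _ => ?_)
    rw [← sum_mul]
    congr 1
    simp
  have hadj : ∀ r ∈ Algebra.adjoin k (S : Set R), ∀ y ∈ LinearMap.range (spanMap B x),
      y * r ∈ LinearMap.range (spanMap B x) := by
    intro r hr
    induction hr using Algebra.adjoin_induction with
    | mem s hs => exact hstep s hs
    | algebraMap c =>
      intro y hy
      rw [← Algebra.commutes, ← Algebra.smul_def]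
      exact Submodule.smul_mem _ _ hy
    | add r r' _ _ h h' =>
      intro y hy
      rw [mul_add]
      exact Submodule.add_mem _ (h y hy) (h' y hy)
    | mul r r' _ _ h h' =>
      intro y hy
      rw [← mul_assoc]
      exact h' _ (h y hy)
  intro r hr
  have := hadj r hr 1 h1M
  rwa [one_mul] at this

/-- local finiteness passes from a subset `C` to `R` when `R` is finitely spanned over `C` -/
theorem locFin_of_span {R : Type*} [Ring R] [Algebra k R] (C : Set R) {n : ℕ} (x : Fin n → R)
    (hx : ∀ z : R, ∃ c : Fin n → R, (∀ i, c i ∈ C) ∧ z = ∑ i, c i * x i) (hC : LocFinOn k C) :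
    LocFinOn k (Set.univ : Set R) := by
  intro S _
  obtain ⟨T, hT, hle⟩ := exists_coeff (k := k) C x hx S
  have hfin : FiniteDimensional k (Algebra.adjoin k (T : Set R)) := hC T hT
  have hfr : FiniteDimensional k (LinearMap.range (spanMap (Algebra.adjoin k (T : Set R)) x)) :=
    inferInstance
  exact Submodule.finiteDimensional_of_le hle

/-- if `D` is a finitely generated algebra, so is the centralizer of `A` -/
theorem fg_centralizer (A : Subalgebra k D) [FiniteDimensional k A] (S : Finset D)
    (hS : Algebra.adjoin k (S : Set D) = ⊤) :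
    ∃ T : Finset D, (Algebra.adjoin k (T : Set D) : Set D) = {c : D | ∀ a ∈ A, c * a = a * c} := by
  obtain ⟨n, x, hx1, hx2⟩ := exists_span A
  obtain ⟨T, hT, hle⟩ := exists_coeff (k := k) {c : D | ∀ a ∈ A, c * a = a * c} x hx1 S
  refine ⟨T, ?_⟩
  have hsub : Algebra.adjoin k (T : Set D) ≤ Subalgebra.centralizer k (A : Set D) := by
    apply Algebra.adjoin_le
    intro t ht
    rw [SetLike.mem_coe, Subalgebra.mem_centralizer_iff]
    intro a ha
    exact (hT t ht a ha).symm
  have hn : 0 < n := by
    rcases Nat.eq_zero_or_pos n with h0 | h0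
    · subst h0
      obtain ⟨c, _, hc⟩ := hx1 1
      simp at hc
    · exact h0
  ext c
  constructor
  · intro hc a ha
    have := (Subalgebra.mem_centralizer_iff k).mp (hsub hc) a ha
    exact this.symm
  · intro hc
    have h1 : c * x ⟨0, hn⟩ ∈ Subalgebra.toSubmodule (Algebra.adjoin k (S : Set D)) := by
      rw [hS, Subalgebra.mem_toSubmodule]
      exact Algebra.mem_top
    obtain ⟨b, hb⟩ := hle h1
    have hb' : ∑ i, (b i : D) * x i = c * x ⟨0, hn⟩ := hb
    have h2 : ∑ i, ((b i : D) - (if i = ⟨0, hn⟩ then c else 0)) * x i = 0 := by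
      have h3 : ∀ i, ((b i : D) - (if i = ⟨0, hn⟩ then c else 0)) * x i
          = (b i : D) * x i - (if i = ⟨0, hn⟩ then c * x i else 0) := by
        intro i
        split_ifs <;> simp [sub_mul]
      rw [sum_congr rfl (fun i _ => h3 i), sum_sub_distrib, hb', sum_ite_eq']
      simp
    have h4 := hx2 (fun i => (b i : D) - (if i = ⟨0, hn⟩ then c else 0)) (by
      intro i a ha
      have h5 : (b i : D) * a = a * (b i : D) :=
        ((Subalgebra.mem_centralizer_iff k).mp (hsub (b i).2) a ha).symm
      split_ifs
      · rw [sub_mul, mul_sub, h5, hc a ha]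
      · rw [sub_mul, mul_sub, h5, zero_mul, mul_zero]) h2
    have h6 := congrFun h4 ⟨0, hn⟩
    simp only [if_true, Pi.zero_apply] at h6
    rw [SetLike.mem_coe, ← sub_eq_zero.mp h6]
    exact (b ⟨0, hn⟩).2

end

/-- **Local finiteness is detected by one centralizer.** Let `D` be a division ring and `k` a
central subfield (for instance the center of `D`).

(1) If `A` is a finite-dimensional `k`-subalgebra of `D`, then `D` is locally finite over `k` if and
only if the centralizer of `A` in `D` is.

(2) If some `a : D` is algebraic over `k` and the elements commuting with `a` form a locally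
finite algebra, then `D` is locally finite over `k`.

(3) If `D` is algebraic over `k` and contains a finite-dimensional `k`-subalgebra whose
centralizer is commutative, then `D` is locally finite over `k`.

(4) If `D` is a counterexample to the formulation of Kurosh over `k` (finitely generated as a
`k`-algebra, algebraic and infinite-dimensional), then so is the centralizer of each
finite-dimensional `k`-subalgebra. -/
theorem result (k D : Type) [Field k] [DivisionRing D] [Algebra k D] :
    (∀ A : Subalgebra k D, FiniteDimensional k A →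
      (LocFinOn k (Set.univ : Set D) ↔ LocFinOn k {c : D | ∀ a ∈ A, c * a = a * c})) ∧
    (∀ a : D, IsAlgebraic k a → LocFinOn k {c : D | c * a = a * c} →
      LocFinOn k (Set.univ : Set D)) ∧
    ((∀ b : D, IsAlgebraic k b) → ∀ A : Subalgebra k D, FiniteDimensional k A →
      (∀ c d : D, (∀ a ∈ A, c * a = a * c) → (∀ a ∈ A, d * a = a * d) → c * d = d * c) →
      LocFinOn k (Set.univ : Set D)) ∧
    (∀ S : Finset D, Algebra.adjoin k (S : Set D) = ⊤ → ¬ FiniteDimensional k D →
      ∀ A : Subalgebra k D, FiniteDimensional k A →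
        ∃ T : Finset D, (Algebra.adjoin k (T : Set D) : Set D) = {c : D | ∀ a ∈ A, c * a = a * c} ∧
          ¬ FiniteDimensional k (Algebra.adjoin k (T : Set D))) := by
  have h1 : ∀ A : Subalgebra k D, FiniteDimensional k A →
      (LocFinOn k (Set.univ : Set D) ↔ LocFinOn k {c : D | ∀ a ∈ A, c * a = a * c}) := by
    intro A hA
    constructor
    · intro h T _
      exact h T (fun t _ => Set.mem_univ t)
    · intro h
      obtain ⟨n, x, hx, _⟩ := exists_span A
      exact locFin_of_span {c : D | ∀ a ∈ A, c * a = a * c} x hx h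
  refine ⟨h1, ?_, ?_, ?_⟩
  · intro a ha h
    have hint : IsIntegral k a := ha.isIntegral
    have hA : FiniteDimensional k (Algebra.adjoin k ({a} : Set D)) := by
      have hfg := hint.fg_adjoin_singleton
      exact Module.Finite.iff_fg.mpr hfg
    refine (h1 (Algebra.adjoin k {a}) hA).mpr ?_
    intro T hT
    apply h T
    intro t ht
    exact hT t ht a (Algebra.subset_adjoin rfl)
  · intro halg A hA hcomm
    refine (h1 A hA).mpr ?_
    intro T hT
    have hc : ∀ x ∈ (T : Set D), ∀ y ∈ (T : Set D), x * y = y * x := by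
      intro x hx y hy
      exact hcomm x y (hT x hx) (hT y hy)
    let _ : CommRing (Algebra.adjoin k (T : Set D)) := Algebra.adjoinCommRingOfComm k hc
    have hft : Algebra.FiniteType k (Algebra.adjoin k (T : Set D)) := by
      rw [← Subalgebra.fg_iff_finiteType]
      exact ⟨T, rfl⟩
    have hint : Algebra.IsIntegral k (Algebra.adjoin k (T : Set D)) := by
      constructor
      intro z
      have h2 : IsIntegral k (z : D) := (halg z).isIntegral
      exact (isIntegral_algHom_iff (Algebra.adjoin k (T : Set D)).val
        Subtype.val_injective).mp h2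
    exact Algebra.IsIntegral.finite
  · intro S hS hinf A hA
    obtain ⟨T, hT⟩ := fg_centralizer A S hS
    refine ⟨T, hT, ?_⟩
    intro hfin
    apply hinf
    -- `D` is spanned over the centralizer by finitely many elements
    obtain ⟨n, x, hx, _⟩ := exists_span A
    have hsurj : LinearMap.range (spanMap (Algebra.adjoin k (T : Set D)) x) = ⊤ := by
      rw [eq_top_iff]
      intro z _
      obtain ⟨c, hc, hz⟩ := hx z
      have hc' : ∀ i, c i ∈ Algebra.adjoin k (T : Set D) := by
        intro i
        have : c i ∈ (Algebra.adjoin k (T : Set D) : Set D) := by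
          rw [hT]; exact hc i
        exact this
      exact ⟨fun i => ⟨c i, hc' i⟩, hz.symm⟩
    exact Module.Finite.of_surjective (spanMap (Algebra.adjoin k (T : Set D)) x)
      (LinearMap.range_eq_top.mp hsurj)

end Vale.Agent.Results.P199.Centralizer
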