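import Vale.Agent.P199.Index

/-!
# P199: Kurosh's problem over fields whose extensions reduce the index of division algebras
-/

namespace Vale.Agent.Results.P199.IndexReduction

open Vale.Agent.P199.FieldDefs Vale.Agent.P199.IndexDefs Vale.Agent.P199.Index

/-- **Kurosh's problem over fields whose extensions reduce the index.** Let `D` be a division ring
which is algebraic over a central subfield `k`. Here (N) is `HasAutomorphisms` and (R) is
`ReducesIndex`.

(1) If `k` has (N) and (R), then `D` is locally finite over `k`.

(2) If some finite extension `K` of `k` which embeds in `D` over `k` has (N) and (R), then `D` is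
locally finite over `k`.

(3) If `k` has (R) and `D` has a noncommutative finite-dimensional `k`-subalgebra, then `D` is
locally finite over `k`.

(4) Finite fields have (N) and (R). -/
theorem result (k K D : Type) [Field k] [Field K] [Algebra k K] [DivisionRing D] [Algebra k D]
    (halg : ∀ b : D, IsAlgebraic k b) :
    (HasAutomorphisms k → ReducesIndex k → LocallyFinite k D) ∧
    (FiniteDimensional k K → Nonempty (K →ₐ[k] D) →
      HasAutomorphisms K → ReducesIndex K → LocallyFinite k D) ∧
    (ReducesIndex k →
      (∃ A : Subalgebra k D, FiniteDimensional k A ∧ ∃ a ∈ A, ∃ b ∈ A, a * b ≠ b * a) →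
      LocallyFinite k D) ∧
    (Finite K → HasAutomorphisms K ∧ ReducesIndex K) := by
  refine ⟨?_, ?_, ?_, ?_⟩
  · intro hN hR
    exact locFin_of_index halg hN hR
  · rintro hK ⟨f⟩ hN hR
    exact locFin_of_index_sub halg hK f hN hR
  · rintro hR ⟨A, hA, hnc⟩
    exact locFin_of_noncomm halg hR A hA hnc
  · intro _
    exact ⟨Vale.Agent.P199.Good.finite_aut K, finite_reduces K⟩

end Vale.Agent.Results.P199.IndexReduction
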