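import Vale.Agent.P199.Sep

/-!
# P199: an algebraic division ring that is not locally finite has, in each centralizer of a
finite-dimensional subalgebra, an infinite-dimensional commutative separable subfield
-/

namespace Vale.Agent.Results.P199.SeparableSubfields

/-- The `k`-algebra `D` is *locally finite over `k`*: every finite subset of `D` generates a
`k`-subalgebra of finite dimension. -/
def LocallyFinite (k D : Type) [Field k] [Ring D] [Algebra k D] : Prop :=
  ∀ T : Finset D, FiniteDimensional k (Algebra.adjoin k (T : Set D))

/-- **Separable subfields decide local finiteness.** Let `D` be a division ring which is algebraic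
over a central subfield `k` (for instance its center), and let `A` be any finite-dimensional
`k`-subalgebra of `D` (for instance `A = k`).

(1) If `A` contains every element of its centralizer which is separable over `k`, then `D` is
locally finite.

(2) If every commutative subalgebra of the centralizer of `A` consisting of elements separable over
`k` is finite-dimensional, then `D` is locally finite.

(3) If the degrees over `k` of the elements of the centralizer of `A` which are separable over `k`
are bounded, then `D` is locally finite. -/
theorem result (k D : Type) [Field k] [DivisionRing D] [Algebra k D]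
    (halg : ∀ b : D, IsAlgebraic k b) (A : Subalgebra k D) (hA : FiniteDimensional k A) :
    ((∀ c : D, (∀ a ∈ A, c * a = a * c) → IsSeparable k c → c ∈ A) → LocallyFinite k D) ∧
    ((∀ K : Subalgebra k D, (∀ x ∈ K, ∀ y ∈ K, x * y = y * x) →
        (∀ x ∈ K, ∀ a ∈ A, x * a = a * x) → (∀ x ∈ K, IsSeparable k x) →
        FiniteDimensional k K) →
      LocallyFinite k D) ∧
    (∀ N : ℕ, (∀ c : D, (∀ a ∈ A, c * a = a * c) → IsSeparable k c →
        (minpoly k c).natDegree ≤ N) →
      LocallyFinite k D) := by
  refine ⟨?_, ?_, ?_⟩
  · intro h T
    exact (Vale.Agent.Results.P199.Centralizer.result k D).2.2.1 halg A hA (Vale.Agent.P199.Sep.centralizer_comm halg A h)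
      T (fun t _ => Set.mem_univ t)
  · intro h T
    exact Vale.Agent.P199.Sep.locFin_of_subfields halg A h T (fun t _ => Set.mem_univ t)
  · intro N hN T
    refine Vale.Agent.P199.Sep.locFin_of_subfields halg A ?_ T (fun t _ => Set.mem_univ t)
    intro K hc hca hs
    exact Vale.Agent.P199.Sep.fd_subfield halg K hc hs N
      (fun x hx => hN x (hca x hx) (hs x hx))

end Vale.Agent.Results.P199.SeparableSubfields
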